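import Vale.Agent.P159.Bdl.B1

set_option linter.all false

/-!
Row R7: the duplicates kernel `exp (2 ∑ J cos cos)` is positive semidefinite, Cauchy-Schwarz.
-/

open MeasureTheory Filter Topology
open scoped BigOperators

namespace Vale.Agent.P159.H292

open Vale.Agent.P159

variable {G : Type*} [AddCommGroup G] [TopologicalSpace G] [IsTopologicalAddGroup G]
  [CompactSpace G] [SecondCountableTopology G] [MeasurableSpace G] [BorelSpace G]
  (μ : Measure G) [μ.IsAddHaarMeasure] [IsProbabilityMeasure μ]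
  {κ : Type*} [Fintype κ] (J : κ → ℝ) (χ : κ → Chr G)

section Lin

variable {X : Type*} [TopologicalSpace X] [CompactSpace X] [MeasurableSpace X]
  [OpensMeasurableSpace X] {ν : Measure X} [IsFiniteMeasure ν]

theorem int4 {a b c d : X → ℝ} (ha : Continuous a) (hb : Continuous b) (hc : Continuous c)
    (hd : Continuous d) (s t u : ℝ) :
    ∫ x, (a x + (s * b x + (t * c x + u * d x))) ∂ν =
      ∫ x, a x ∂ν + (s * ∫ x, b x ∂ν + (t * ∫ x, c x ∂ν + u * ∫ x, d x ∂ν)) := by
  have h1 : Continuous fun x => s * b x := continuous_const.mul hb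
  have h2 : Continuous fun x => t * c x := continuous_const.mul hc
  have h3 : Continuous fun x => u * d x := continuous_const.mul hd
  have e1 : ∫ x, (a x + (s * b x + (t * c x + u * d x))) ∂ν =
      ∫ x, a x ∂ν + ∫ x, (s * b x + (t * c x + u * d x)) ∂ν :=
    integral_add (cint ha) (cint (h1.add (h2.add h3)))
  have e2 : ∫ x, (s * b x + (t * c x + u * d x)) ∂ν =
      ∫ x, s * b x ∂ν + ∫ x, (t * c x + u * d x) ∂ν :=
    integral_add (cint h1) (cint (h2.add h3))
  have e3 : ∫ x, (t * c x + u * d x) ∂ν = ∫ x, t * c x ∂ν + ∫ x, u * d x ∂ν :=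
    integral_add (cint h2) (cint h3)
  rw [e1, e2, e3, integral_const_mul, integral_const_mul, integral_const_mul]

end Lin

/-- the duplicates kernel as a bilinear form -/
noncomputable def KD (f g : G → ℝ) : ℝ :=
  ∫ p : G × G, (f p.1 * g p.2) * Real.exp (∑ k, 2 * J k * ((χ k).c p.1 * (χ k).c p.2))
    ∂(μ.prod μ)

theorem cont_kd : Continuous fun p : G × G =>
    Real.exp (∑ k, 2 * J k * ((χ k).c p.1 * (χ k).c p.2)) :=
  Real.continuous_exp.comp (continuous_finsetSum _ fun k _ => continuous_const.mul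
    (((χ k).cont_c.comp continuous_fst).mul ((χ k).cont_c.comp continuous_snd)))

theorem cont_prod {f g : G → ℝ} (hf : Continuous f) (hg : Continuous g) :
    Continuous fun p : G × G => f p.1 * g p.2 :=
  (hf.comp continuous_fst).mul (hg.comp continuous_snd)

theorem kd_symm (f g : G → ℝ) : KD μ J χ f g = KD μ J χ g f := by
  unfold KD
  rw [← integral_prod_swap]
  congr 1
  ext p
  simp only [Prod.fst_swap, Prod.snd_swap]
  rw [mul_comm (f p.2)]
  congr 2
  refine Finset.sum_congr rfl fun k _ => ?_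
  ring

theorem kd_nonneg (hJ : ∀ k, 0 ≤ J k) {f : G → ℝ} (hf : Continuous f) : 0 ≤ KD μ J χ f f :=
  kernel_nonneg (μ := μ) (fun k => 2 * J k) (fun k => mul_nonneg zero_le_two (hJ k))
    (fun k => (χ k).c) (fun k => (χ k).cont_c) hf

theorem kd_lin {f g : G → ℝ} (hf : Continuous f) (hg : Continuous g) (t : ℝ) :
    KD μ J χ (fun x => f x + t * g x) (fun x => f x + t * g x) =
      KD μ J χ f f + 2 * t * KD μ J χ f g + t ^ 2 * KD μ J χ g g := by
  have hs : KD μ J χ g f = KD μ J χ f g := kd_symm μ J χ g f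
  have hi : ∀ (u v : G → ℝ), Continuous u → Continuous v → Continuous (fun p : G × G =>
      (u p.1 * v p.2) * Real.exp (∑ k, 2 * J k * ((χ k).c p.1 * (χ k).c p.2))) :=
    fun u v hu hv => (cont_prod hu hv).mul (cont_kd J χ)
  have h1 : KD μ J χ (fun x => f x + t * g x) (fun x => f x + t * g x) =
      KD μ J χ f f + (t * KD μ J χ f g + (t * KD μ J χ g f + t ^ 2 * KD μ J χ g g)) := by
    unfold KD
    rw [← int4 (hi _ _ hf hf) (hi _ _ hf hg) (hi _ _ hg hf) (hi _ _ hg hg)]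
    congr 1
    ext p
    ring
  rw [h1, hs]
  ring

/-- Cauchy-Schwarz -/
theorem kd_cs (hJ : ∀ k, 0 ≤ J k) {f g : G → ℝ} (hf : Continuous f) (hg : Continuous g) :
    KD μ J χ f g ^ 2 ≤ KD μ J χ f f * KD μ J χ g g := by
  have h : ∀ t : ℝ, 0 ≤ KD μ J χ g g * (t * t) + 2 * KD μ J χ f g * t + KD μ J χ f f := by
    intro t
    have h1 := kd_nonneg μ J χ hJ (f := fun x => f x + t * g x) (hf.add (continuous_const.mul hg))
    rw [kd_lin μ J χ hf hg t] at h1
    linarith
  have h2 := discrim_le_zero h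
  unfold discrim at h2
  linarith

/-- passage from two independent copies to the duplicates -/
theorem dup (h2 : ∀ g : G, ∃ h : G, h + h = g) {F : G × G → ℝ} (hF : Continuous F) :
    ∫ p : G × G, F p * (Real.exp (∑ e, J e * (χ e).c p.1) * Real.exp (∑ e, J e * (χ e).c p.2))
      ∂(μ.prod μ) =
    ∫ p : G × G, F (p.1 + p.2, p.1 - p.2) *
      Real.exp (∑ k, 2 * J k * ((χ k).c p.1 * (χ k).c p.2)) ∂(μ.prod μ) := by
  have hc : Continuous fun p : G × G =>
      F p * (Real.exp (∑ e, J e * (χ e).c p.1) * Real.exp (∑ e, J e * (χ e).c p.2)) :=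
    hF.mul (cont_prod (cont_weight J χ) (cont_weight J χ))
  rw [← integral_rot μ h2 hc]
  congr 1
  ext p
  rw [← Real.exp_add, ← Finset.sum_add_distrib]
  congr 2
  refine Finset.sum_congr rfl fun e _ => ?_
  rw [sub_eq_add_neg p.1 p.2]
  simp only [(χ e).c_add, (χ e).c_neg, (χ e).s_neg]
  ring

/-- unnormalized expectations -/
theorem gibbs_mul (f : G → ℝ) :
    gibbs μ J χ f * ∫ x, Real.exp (∑ e, J e * (χ e).c x) ∂μ =
      ∫ x, f x * Real.exp (∑ e, J e * (χ e).c x) ∂μ := by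
  unfold gibbs
  rw [div_mul_cancel₀ _ (weight_pos μ J χ).ne']

/-- product of two expectations in two copies -/
theorem prod2 (f g : G → ℝ) :
    gibbs μ J χ f * gibbs μ J χ g * (∫ x, Real.exp (∑ e, J e * (χ e).c x) ∂μ) ^ 2 =
      ∫ p : G × G, (f p.1 * g p.2) *
        (Real.exp (∑ e, J e * (χ e).c p.1) * Real.exp (∑ e, J e * (χ e).c p.2)) ∂(μ.prod μ) := by
  have h1 : ∀ p : G × G, (f p.1 * g p.2) *
      (Real.exp (∑ e, J e * (χ e).c p.1) * Real.exp (∑ e, J e * (χ e).c p.2)) =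
      (f p.1 * Real.exp (∑ e, J e * (χ e).c p.1)) * (g p.2 * Real.exp (∑ e, J e * (χ e).c p.2)) :=
    fun p => by ring
  simp_rw [h1]
  rw [integral_prod_mul (fun x => f x * Real.exp (∑ e, J e * (χ e).c x))
    (fun x => g x * Real.exp (∑ e, J e * (χ e).c x)), ← gibbs_mul, ← gibbs_mul]
  ring

/-- combination of four products -/
theorem four (h2 : ∀ g : G, ∃ h : G, h + h = g) {f g P Q : G → ℝ} (hf : Continuous f)
    (hg : Continuous g) (hP : Continuous P) (hQ : Continuous Q) (ε : ℝ)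
    (hid : ∀ x y, f (x + y) * g (x + y) + f (x - y) * g (x - y) +
      ε * (f (x + y) * g (x - y) + f (x - y) * g (x + y)) = 4 * (P x * Q y)) :
    (gibbs μ J χ (fun x => f x * g x) + ε * (gibbs μ J χ f * gibbs μ J χ g)) *
      (∫ x, Real.exp (∑ e, J e * (χ e).c x) ∂μ) ^ 2 = 2 * KD μ J χ P Q := by
  have hi : ∀ {u v : G → ℝ}, Continuous u → Continuous v → Continuous (fun p : G × G =>
      (u p.1 * v p.2) * (Real.exp (∑ e, J e * (χ e).c p.1) *
        Real.exp (∑ e, J e * (χ e).c p.2))) :=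
    fun hu hv => (cont_prod hu hv).mul (cont_prod (cont_weight J χ) (cont_weight J χ))
  have hfg : Continuous fun x => f x * g x := hf.mul hg
  have h1 : Continuous fun _ : G => (1 : ℝ) := continuous_const
  have a1 := prod2 μ J χ (fun x => f x * g x) (fun _ => 1)
  have a2 := prod2 μ J χ (fun _ => 1) (fun x => f x * g x)
  have a3 := prod2 μ J χ f g
  have a4 := prod2 μ J χ g f
  rw [gibbs_const, mul_one] at a1
  rw [gibbs_const, one_mul] at a2
  have hF : Continuous fun p : G × G => (f p.1 * g p.1) * 1 + (1 * (f p.2 * g p.2) +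
      ε * (f p.1 * g p.2 + g p.1 * f p.2)) := by
    refine (cont_prod hfg h1).add ((cont_prod h1 hfg).add (continuous_const.mul
      ((cont_prod hf hg).add (cont_prod hg hf))))
  have h3 : ∫ p : G × G, ((f p.1 * g p.1) * 1 + (1 * (f p.2 * g p.2) +
      ε * (f p.1 * g p.2 + g p.1 * f p.2))) * (Real.exp (∑ e, J e * (χ e).c p.1) *
        Real.exp (∑ e, J e * (χ e).c p.2)) ∂(μ.prod μ) =
      2 * (gibbs μ J χ (fun x => f x * g x) + ε * (gibbs μ J χ f * gibbs μ J χ g)) *
        (∫ x, Real.exp (∑ e, J e * (χ e).c x) ∂μ) ^ 2 := by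
    have e1 : 2 * (gibbs μ J χ (fun x => f x * g x) + ε * (gibbs μ J χ f * gibbs μ J χ g)) *
        (∫ x, Real.exp (∑ e, J e * (χ e).c x) ∂μ) ^ 2 =
        gibbs μ J χ (fun x => f x * g x) * (∫ x, Real.exp (∑ e, J e * (χ e).c x) ∂μ) ^ 2 +
        (gibbs μ J χ (fun x => f x * g x) * (∫ x, Real.exp (∑ e, J e * (χ e).c x) ∂μ) ^ 2 +
        (ε * (gibbs μ J χ f * gibbs μ J χ g * (∫ x, Real.exp (∑ e, J e * (χ e).c x) ∂μ) ^ 2) +
        ε * (gibbs μ J χ g * gibbs μ J χ f *
          (∫ x, Real.exp (∑ e, J e * (χ e).c x) ∂μ) ^ 2))) := by ring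
    rw [e1]
    nth_rewrite 1 [a1]
    rw [a2, a3, a4, ← one_mul (∫ p : G × G, (1 * (f p.2 * g p.2)) *
        (Real.exp (∑ e, J e * (χ e).c p.1) * Real.exp (∑ e, J e * (χ e).c p.2)) ∂(μ.prod μ)),
      ← int4 (hi hfg h1) (hi h1 hfg) (hi hf hg) (hi hg hf)]
    congr 1
    ext p
    ring
  rw [dup μ J χ h2 hF] at h3
  have h4 : ∫ p : G × G, ((f (p.1 + p.2) * g (p.1 + p.2)) * 1 +
      (1 * (f (p.1 - p.2) * g (p.1 - p.2)) +
      ε * (f (p.1 + p.2) * g (p.1 - p.2) + g (p.1 + p.2) * f (p.1 - p.2)))) *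
      Real.exp (∑ k, 2 * J k * ((χ k).c p.1 * (χ k).c p.2)) ∂(μ.prod μ) =
      4 * KD μ J χ P Q := by
    unfold KD
    rw [← integral_const_mul]
    congr 1
    ext p
    linear_combination Real.exp (∑ k, 2 * J k * ((χ k).c p.1 * (χ k).c p.2)) * hid p.1 p.2
  simp only at h3
  rw [h4] at h3
  linarith

/-- **Row R7.** -/
theorem r7 (h2 : ∀ g : G, ∃ h : G, h + h = g) (hJ : ∀ k, 0 ≤ J k) (e : κ) (A : Chr G) :
    (gibbs μ J χ fun x => (χ e).s x * A.s x) ^ 2 ≤
      ((gibbs μ J χ fun x => (χ e).c x * A.c x) - gibbs μ J χ (χ e).c * gibbs μ J χ A.c) *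
      ((gibbs μ J χ fun x => (χ e).c x * A.c x) + gibbs μ J χ (χ e).c * gibbs μ J χ A.c) := by
  set Z : ℝ := ∫ x, Real.exp (∑ e, J e * (χ e).c x) ∂μ with hZ
  have hZ0 : 0 < Z := weight_pos μ J χ
  have hss : Continuous fun x => (χ e).s x * A.s x := (χ e).cont_s.mul A.cont_s
  have hcc : Continuous fun x => (χ e).c x * A.c x := (χ e).cont_c.mul A.cont_c
  have b1 := four μ J χ h2 (f := (χ e).c) (g := A.c) (P := fun x => (χ e).s x * A.s x)
    (Q := fun x => (χ e).s x * A.s x) (χ e).cont_c A.cont_c hss hss (-1) (by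
      intro x y
      rw [sub_eq_add_neg x y]
      simp only [(χ e).c_add, (χ e).c_neg, (χ e).s_neg, A.c_add, A.c_neg, A.s_neg]
      ring)
  have b2 := four μ J χ h2 (f := (χ e).c) (g := A.c) (P := fun x => (χ e).c x * A.c x)
    (Q := fun x => (χ e).c x * A.c x) (χ e).cont_c A.cont_c hcc hcc 1 (by
      intro x y
      rw [sub_eq_add_neg x y]
      simp only [(χ e).c_add, (χ e).c_neg, (χ e).s_neg, A.c_add, A.c_neg, A.s_neg]
      ring)
  have b3 : gibbs μ J χ (fun x => (χ e).s x * A.s x) * Z ^ 2 =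
      2 * KD μ J χ (fun x => (χ e).s x * A.s x) (fun x => (χ e).c x * A.c x) := by
    have h1 : Continuous fun _ : G => (1 : ℝ) := continuous_const
    have a1 := prod2 μ J χ (fun x => (χ e).s x * A.s x) (fun _ => 1)
    have a2 := prod2 μ J χ (fun _ => 1) (fun x => (χ e).s x * A.s x)
    rw [gibbs_const, mul_one] at a1
    rw [gibbs_const, one_mul] at a2
    have hi : ∀ {u v : G → ℝ}, Continuous u → Continuous v → Integrable (fun p : G × G =>
        (u p.1 * v p.2) * (Real.exp (∑ e, J e * (χ e).c p.1) *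
          Real.exp (∑ e, J e * (χ e).c p.2))) (μ.prod μ) :=
      fun hu hv => cint ((cont_prod hu hv).mul (cont_prod (cont_weight J χ) (cont_weight J χ)))
    have hF : Continuous fun p : G × G => ((χ e).s p.1 * A.s p.1) * 1 +
        1 * ((χ e).s p.2 * A.s p.2) := (cont_prod hss h1).add (cont_prod h1 hss)
    have h3 : ∫ p : G × G, (((χ e).s p.1 * A.s p.1) * 1 + 1 * ((χ e).s p.2 * A.s p.2)) *
        (Real.exp (∑ e, J e * (χ e).c p.1) * Real.exp (∑ e, J e * (χ e).c p.2)) ∂(μ.prod μ) =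
        2 * (gibbs μ J χ (fun x => (χ e).s x * A.s x) * Z ^ 2) := by
      have e1 : 2 * (gibbs μ J χ (fun x => (χ e).s x * A.s x) * Z ^ 2) =
          gibbs μ J χ (fun x => (χ e).s x * A.s x) * Z ^ 2 +
          gibbs μ J χ (fun x => (χ e).s x * A.s x) * Z ^ 2 := by ring
      rw [e1]
      nth_rewrite 1 [a1]
      rw [a2, ← integral_add (hi hss h1) (hi h1 hss)]
      congr 1
      ext p
      ring
    rw [dup μ J χ h2 hF] at h3
    have hj : ∀ {u v : G → ℝ}, Continuous u → Continuous v → Integrable (fun p : G × G =>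
        (u p.1 * v p.2) * Real.exp (∑ k, 2 * J k * ((χ k).c p.1 * (χ k).c p.2))) (μ.prod μ) :=
      fun hu hv => cint ((cont_prod hu hv).mul (cont_kd J χ))
    have h5 : ∫ p : G × G, (((χ e).s (p.1 + p.2) * A.s (p.1 + p.2)) * 1 +
        1 * ((χ e).s (p.1 - p.2) * A.s (p.1 - p.2))) *
        Real.exp (∑ k, 2 * J k * ((χ k).c p.1 * (χ k).c p.2)) ∂(μ.prod μ) =
        2 * KD μ J χ (fun x => (χ e).s x * A.s x) (fun x => (χ e).c x * A.c x) +
        2 * KD μ J χ (fun x => (χ e).c x * A.c x) (fun x => (χ e).s x * A.s x) := by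
      unfold KD
      rw [← integral_const_mul, ← integral_const_mul,
        ← integral_add ((hj hss hcc).const_mul 2) ((hj hcc hss).const_mul 2)]
      congr 1
      ext p
      rw [sub_eq_add_neg p.1 p.2]
      simp only [(χ e).s_add, (χ e).c_neg, (χ e).s_neg, A.s_add, A.c_neg, A.s_neg]
      ring
    simp only at h3
    rw [h5, kd_symm μ J χ (fun x => (χ e).c x * A.c x)] at h3
    linarith
  have h6 := kd_cs μ J χ hJ hss hcc
  rw [← hZ] at b1 b2
  have h7 : (gibbs μ J χ (fun x => (χ e).s x * A.s x) * Z ^ 2) ^ 2 ≤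
      ((gibbs μ J χ (fun x => (χ e).c x * A.c x) + -1 * (gibbs μ J χ (χ e).c * gibbs μ J χ A.c)) *
        Z ^ 2) * ((gibbs μ J χ (fun x => (χ e).c x * A.c x) +
          1 * (gibbs μ J χ (χ e).c * gibbs μ J χ A.c)) * Z ^ 2) := by
    rw [b1, b2, b3]
    linarith
  have h8 : 0 < (Z ^ 2) ^ 2 := by positivity
  refine le_of_mul_le_mul_right ?_ h8
  linarith

end Vale.Agent.P159.H292
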