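import Vale.Agent.P159.Bdl.B8

/-! P159, row R9': the Messager-Miracle-Sole inequalities on the lattice, from the abstract form. -/

open MeasureTheory Filter Topology

set_option linter.all false

namespace Vale.Agent.P159.H292

open Vale.Agent.P159 Vale.Agent.P159.XY

/-- the abstract reflection inequality -/
def R9 : Prop := ∀ (V : Type) [Fintype V] (ρ : V → V) (p : V → Prop) (J : V → V → ℝ),
  (∀ x, ρ (ρ x) = x) → (∀ x, p (ρ x) ↔ ¬ p x) → (∀ u v, J u v = J v u) → (∀ u v, 0 ≤ J u v) →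
  (∀ u v, J (ρ u) (ρ v) = J u v) → (∀ u v, p u → p v → u ≠ v → J u (ρ v) = 0) →
  ∀ x y, p x → p y → XY.corr J x (ρ y) ≤ XY.corr J x y

/-- reflection in the line at height `j - 1/2` -/
def rf (j : ℤ) (u : ℤ × ℤ) : ℤ × ℤ := (u.1, 2 * j - 1 - u.2)

theorem rf_rf (j : ℤ) (u : ℤ × ℤ) : rf j (rf j u) = u := by
  unfold rf
  ext
  · rfl
  · simp only; ring

theorem A_rf (j : ℤ) (u v : ℤ × ℤ) : A (rf j u) (rf j v) = A u v := by
  apply A_congr
  simp only [rf]
  omega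

/-- one step towards the axis -/
theorem CI_step (h9 : R9) {b : ℝ} (hb : 0 ≤ b) {j : ℤ} (hj : 1 ≤ j) (a : ℤ) :
    CI b 0 (a, j) ≤ CI b 0 (a, j - 1) := by
  refine ciSup_le fun R => ?_
  classical
  by_cases hx : ((a, j) : ℤ × ℤ) ∈ box R
  swap
  · unfold KS
    rw [dif_neg fun h => hx h.2]
    exact CI_nonneg hb _ _
  set S : Finset (ℤ × ℤ) := box R ∪ (box R).image (rf j) with hS
  have hSrf : ∀ u ∈ S, rf j u ∈ S := by
    intro u hu
    rcases Finset.mem_union.1 hu with h | h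
    · exact Finset.mem_union_right _ (Finset.mem_image_of_mem _ h)
    · obtain ⟨v, hv, rfl⟩ := Finset.mem_image.1 h
      rw [rf_rf]
      exact Finset.mem_union_left _ hv
  have hbS : box R ⊆ S := Finset.subset_union_left
  have h0 : (0 : ℤ × ℤ) ∈ S := hbS (zero_mem_box R)
  have hy : rf j (a, j) = (a, j - 1) := by
    unfold rf
    ext
    · rfl
    · simp only; ring
  have hyS : ((a, j - 1) : ℤ × ℤ) ∈ S := by
    rw [← hy]
    exact hSrf _ (hbS hx)
  have hy' : rf j (a, j - 1) = (a, j) := by rw [← hy, rf_rf]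
  set ρ : S → S := fun u => ⟨rf j u, hSrf u u.2⟩ with hρ
  have h1 := h9 S ρ (fun u => (u : ℤ × ℤ).2 ≤ j - 1) (fun u v : S => b * A u v)
    (fun x => Subtype.ext (rf_rf j x))
    (fun x => by
      show 2 * j - 1 - (x : ℤ × ℤ).2 ≤ j - 1 ↔ ¬ ((x : ℤ × ℤ).2 ≤ j - 1)
      omega)
    (fun u v => by rw [A_symm])
    (fun u v => mul_nonneg hb (A_nonneg _ _))
    (fun u v => by
      show b * A (rf j u) (rf j v) = b * A u v
      rw [A_rf])
    (fun u v hu hv huv => by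
      show b * A (u : ℤ × ℤ) (rf j v) = 0
      rw [A_eq, if_neg, mul_zero]
      intro hcon
      simp only [rf] at hcon
      have hu' : (u : ℤ × ℤ).2 ≤ j - 1 := hu
      have hv' : (v : ℤ × ℤ).2 ≤ j - 1 := hv
      apply huv
      apply Subtype.ext
      ext
      · omega
      · omega)
    ⟨0, h0⟩ ⟨(a, j - 1), hyS⟩ (by
      show (0 : ℤ) ≤ j - 1
      omega) (by
      show j - 1 ≤ j - 1
      exact le_rfl)
  have h2 : ρ ⟨(a, j - 1), hyS⟩ = ⟨(a, j), hbS hx⟩ := Subtype.ext hy'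
  rw [h2] at h1
  have h3 : KS S b 0 (a, j) ≤ KS S b 0 (a, j - 1) := by
    rw [KS_of_mem b h0 (hbS hx), KS_of_mem b h0 hyS]
    exact h1
  exact (KS_mono hbS hb _ _).trans (h3.trans (KS_le_CI S hb _ _))

theorem C_step (h9 : R9) {b : ℝ} (hb : 0 ≤ b) {j : ℤ} (hj : 1 ≤ j) (a : ℤ) :
    C b (a, j) ≤ C b (a, j - 1) := CI_step h9 hb hj a

theorem C_col (h9 : R9) {b : ℝ} (hb : 0 ≤ b) (a : ℤ) (j : ℕ) : C b (a, (j : ℤ)) ≤ C b (a, 0) := by
  induction j with
  | zero => simp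
  | succ j ih =>
    have h1 := C_step h9 hb (j := ((j + 1 : ℕ) : ℤ)) (by push_cast; omega) a
    have h2 : (((j + 1 : ℕ) : ℤ) - 1) = (j : ℤ) := by push_cast; ring
    rw [h2] at h1
    exact h1.trans ih

/-- the symmetries: absolute values -/
theorem C_abs {b : ℝ} (hb : 0 ≤ b) (x : ℤ × ℤ) : C b (|x.1|, |x.2|) = C b x := by
  have e1 : ∀ y : ℤ × ℤ, C b (-y.1, y.2) = C b y := fun y => C_refl1 hb y
  have e2 : ∀ y : ℤ × ℤ, C b (y.1, -y.2) = C b y := by
    intro y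
    have h := e1 (-y)
    rw [C_neg hb] at h
    simpa using h
  rcases abs_choice x.1 with h1 | h1 <;> rcases abs_choice x.2 with h2 | h2 <;> rw [h1, h2]
  · exact e2 x
  · exact e1 x
  · have h3 := C_neg hb x
    exact h3

/-- **the Messager-Miracle-Sole inequality** for the infinite volume two-point function -/
theorem C_mms (h9 : R9) {b : ℝ} (hb : 0 ≤ b) (x : ℤ × ℤ) : C b x ≤ C b (max |x.1| |x.2|, 0) := by
  have key : ∀ y : ℤ × ℤ, 0 ≤ y.2 → C b y ≤ C b (y.1, 0) := by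
    intro y hy
    obtain ⟨j, hj⟩ := Int.eq_ofNat_of_zero_le hy
    have h := C_col h9 hb y.1 j
    rwa [← hj] at h
  rw [← C_abs hb x]
  rcases le_total |x.2| |x.1| with h | h
  · rw [max_eq_left h]
    exact key (|x.1|, |x.2|) (abs_nonneg _)
  · rw [max_eq_right h, ← C_swap hb]
    exact key (|x.2|, |x.1|) (abs_nonneg _)

/-- **R9'**, first half -/
theorem mms_of (h9 : R9) {b : ℝ} (hb : 0 < b) (x : ℤ × ℤ) :
    corrInf b x ≤ corrInf b (max |x.1| |x.2|, 0) := by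
  rw [corrInf_eq hb.le, corrInf_eq hb.le]
  exact C_mms h9 hb.le x

/-- **R9'**, second half: the correlation decreases along the axis -/
theorem axis_anti_of (h9 : R9) {b : ℝ} (hb : 0 < b) (n : ℕ) :
    corrInf b ((n + 1 : ℤ), 0) ≤ corrInf b ((n : ℤ), 0) := by
  rw [corrInf_eq hb.le, corrInf_eq hb.le, ← C_swap hb.le, ← C_swap hb.le ((n : ℤ), 0)]
  have h := C_step h9 hb.le (j := (n : ℤ) + 1) (by omega) 0
  have e : (n : ℤ) + 1 - 1 = n := by ring
  rw [e] at h
  exact h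

end Vale.Agent.P159.H292
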